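import Vale.Agent.P162.H175.G3
import Vale.Agent.P162.H372.PropD

/-!
P162, stage 2: the abstract side from parts E and F (parts C, D, G are proved).
-/

namespace Vale.Agent.P162.S2.Abs

theorem AB_of_EF {κ : ℝ} (hκ : 0 < κ) (hκ' : κ ≤ 1 / 4) (hE : PropE) (hF : PropF κ) : AB κ :=
  AB_of hκ hκ' H372.propD hE hF

end Vale.Agent.P162.S2.Abs
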