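import Vale.Agent.P162.H175.AB
import Vale.Agent.P162.H816.E2
import Vale.Agent.P162.H151.PropF

/-!
P162, stage 2: the abstract side, unconditional.
-/

namespace Vale.Agent.P162.S2.Abs

/-- **The abstract side.** For `0 < κ ≤ 1/4` the return probability of a symmetric class function
with few fixed points tends to that of the trivial part. -/
theorem AB_main {κ : ℝ} (hκ : 0 < κ) (hκ' : κ ≤ 1 / 4) : AB κ :=
  AB_of_EF hκ hκ' H816.propE (H151.propF κ hκ)

end Vale.Agent.P162.S2.Abs
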