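import Vale.Agent.P162.H151.Dim

/-!
# P162 stage 2, part E by dimension (helper12's remark)

A representation without nonzero vectors fixed by the transpositions inside more than `N - k`
points, that has a nonzero vector fixed by the swaps of at least `k/2` disjoint pairs, has
dimension at least `C(N/2, ⌈k/2⌉)`.
-/

open scoped BigOperators InnerProductSpace
open Equiv

set_option linter.unusedSectionVars false

namespace Vale.Agent.P162.H175

open Vale.Agent.P162.H151

variable {V : Type*} [NormedAddCommGroup V] [InnerProductSpace ℝ V]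
variable {α : Type*} [DecidableEq α]
variable {ι : Type*} [Fintype ι] [DecidableEq ι]
variable {ρ : Perm α →* (V →ₗ[ℝ] V)}

/-- the swap of the pair `i` of the perfect matching `E` -/
def sp (E : ι × Bool ≃ α) (i : ι) : Perm α := swap (E (i, false)) (E (i, true))

theorem sp_sq (E : ι × Bool ≃ α) (i : ι) (v : V) : ρ (sp E i) (ρ (sp E i) v) = v := by
  rw [← map_mul_apply, sp, swap_mul_self]
  exact congrArg (fun A : V →ₗ[ℝ] V => A v) (map_one ρ)

theorem sp_comm (E : ι × Bool ≃ α) {i j : ι} (h : i ≠ j) (v : V) :
    ρ (sp E i) (ρ (sp E j) v) = ρ (sp E j) (ρ (sp E i) v) := by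
  rw [← map_mul_apply, ← map_mul_apply]
  congr 2
  apply commute_swap <;> intro h' <;> exact h (congrArg Prod.fst (E.injective h'))

/-- a nonzero vector of `W`, antisymmetric in the pairs of `K`, symmetric in the other pairs -/
def EK (ρ : Perm α →* (V →ₗ[ℝ] V)) (W : Submodule ℝ V) (E : ι × Bool ≃ α) (K : Finset ι) : Prop :=
  ∃ u ∈ W, u ≠ 0 ∧ ∀ i, ρ (sp E i) u = if i ∈ K then -u else u

/-- completion of a partial pattern -/
theorem ek_complete {W : Submodule ℝ V} (hinv : ∀ g, ∀ w ∈ W, ρ g w ∈ W) (E : ι × Bool ≃ α)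
    (n : ℕ) : ∀ (S K : Finset ι), (Sᶜ).card = n → ∀ u ∈ W, u ≠ 0 →
      (∀ i ∈ S, ρ (sp E i) u = if i ∈ K then -u else u) →
      ∃ K', (∀ i ∈ S, i ∈ K' ↔ i ∈ K) ∧ EK ρ W E K' := by
  induction n with
  | zero =>
    intro S K hS u hu hu0 h
    have : S = Finset.univ := by
      rw [Finset.card_eq_zero, Finset.compl_eq_empty_iff] at hS
      exact hS
    subst this
    exact ⟨K, fun i _ => Iff.rfl, u, hu, hu0, fun i => h i (Finset.mem_univ i)⟩
  | succ n ih =>
    intro S K hS u hu hu0 h
    obtain ⟨a, ha⟩ : (Sᶜ).Nonempty := by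
      rw [← Finset.card_pos]; omega
    have haS : a ∉ S := by simpa using ha
    have hcard : ((insert a S)ᶜ).card = n := by
      rw [Finset.compl_insert, Finset.card_erase_of_mem ha]; omega
    by_cases hs : u + ρ (sp E a) u = 0
    · -- antisymmetric in `a`
      have h1 : ρ (sp E a) u = -u := by
        rw [eq_neg_iff_add_eq_zero, add_comm]; exact hs
      obtain ⟨K', hK', hE⟩ := ih (insert a S) (insert a K) hcard u hu hu0 (by
        intro i hi
        by_cases hia : i = a
        · subst hia; simp [h1]
        · have hiS : i ∈ S := by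
            rcases Finset.mem_insert.1 hi with h2 | h2
            · exact absurd h2 hia
            · exact h2
          rw [h i hiS]
          simp [hia])
      refine ⟨K', fun i hi => ?_, hE⟩
      have hia : i ≠ a := fun h2 => haS (h2 ▸ hi)
      rw [hK' i (Finset.mem_insert_of_mem hi)]
      simp [hia]
    · obtain ⟨K', hK', hE⟩ := ih (insert a S) (K.erase a) hcard (u + ρ (sp E a) u)
        (W.add_mem hu (hinv _ _ hu)) hs (by
        intro i hi
        by_cases hia : i = a
        · subst hia
          simp only [Finset.mem_erase, ne_eq, not_true_eq_false, false_and, if_false]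
          rw [map_add, sp_sq, add_comm]
        · have hiS : i ∈ S := by
            rcases Finset.mem_insert.1 hi with h2 | h2
            · exact absurd h2 hia
            · exact h2
          rw [map_add, sp_comm E hia, h i hiS]
          by_cases hiK : i ∈ K
          · simp [hiK, hia]; abel
          · simp [hiK])
      refine ⟨K', fun i hi => ?_, hE⟩
      have hia : i ≠ a := fun h2 => haS (h2 ▸ hi)
      rw [hK' i (Finset.mem_insert_of_mem hi)]
      simp [hia]

variable [Fintype α]

/-- propagation to higher patterns -/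
theorem ek_up {W : Submodule ℝ V} (hinv : ∀ g, ∀ w ∈ W, ρ g w ∈ W) (E : ι × Bool ≃ α) {k : ℕ}
    (hhigh : ∀ B : Finset α, Fintype.card α < B.card + k → ∀ w ∈ W, w ∈ Inv ρ B → w = 0)
    {K : Finset ι} (hK : EK ρ W E K) (hk : 2 * K.card < k) :
    ∃ K' : Finset ι, EK ρ W E K' ∧ (K'.card = K.card + 1 ∨ K'.card = K.card + 2) := by
  by_contra hcon
  push Not at hcon
  obtain ⟨u, hu, hu0, hpat⟩ := hK
  have hfix : ∀ i ∉ K, ρ (sp E i) u = u := fun i hi => by rw [hpat i, if_neg hi]
  -- cross transpositions
  have hcross : ∀ (a a' : ι) (b b' : Bool), a ∉ K → a' ∉ K → a ≠ a' →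
      ρ (swap (E (a, b)) (E (a', b'))) u = u := by
    intro a a' b b' ha ha' hne
    set τ := swap (E (a, b)) (E (a', b')) with hτ
    have hττ : ∀ v, ρ τ (ρ τ v) = v := fun v => by
      rw [← map_mul_apply, hτ, swap_mul_self]
      exact congrArg (fun A : V →ₗ[ℝ] V => A v) (map_one ρ)
    -- patterns outside `a, a'`
    have hout : ∀ i, i ≠ a → i ≠ a' → ρ (sp E i) (ρ τ u) = if i ∈ K then -(ρ τ u) else ρ τ u := by
      intro i h1 h2
      have hc : ρ (sp E i) (ρ τ u) = ρ τ (ρ (sp E i) u) := by
        rw [← map_mul_apply, ← map_mul_apply]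
        congr 2
        apply commute_swap <;> intro h' <;> have h3 := congrArg Prod.fst (E.injective h')
        · exact h1 h3
        · exact h2 h3
        · exact h1 h3
        · exact h2 h3
      rw [hc, hpat i]
      split_ifs
      · rw [map_neg]
      · rfl
    have hsa : ρ (sp E a) (ρ τ u) = ρ τ u := by
      by_contra hne2
      have hv0 : ρ τ u - ρ (sp E a) (ρ τ u) ≠ 0 := fun h => hne2 (sub_eq_zero.1 h).symm
      obtain ⟨K', hK', hE⟩ := ek_complete hinv E _ ({a'}ᶜ) (insert a K) rfl
        (ρ τ u - ρ (sp E a) (ρ τ u)) (W.sub_mem (hinv _ _ hu) (hinv _ _ (hinv _ _ hu))) hv0 (by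
          intro i hi
          have hia' : i ≠ a' := by simpa using hi
          by_cases hia : i = a
          · subst hia
            rw [if_pos (Finset.mem_insert_self _ _), map_sub, sp_sq]
            abel
          · rw [map_sub, sp_comm E hia, hout i hia hia']
            by_cases hiK : i ∈ K
            · simp only [hiK, if_true, Finset.mem_insert, or_true, map_neg]
              abel
            · simp [hiK, hia])
      have h4 : K' = insert a K ∨ K' = insert a' (insert a K) := by
        by_cases h5 : a' ∈ K'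
        · right
          ext i
          by_cases h6 : i = a'
          · subst h6; simp [h5]
          · rw [hK' i (by simpa using h6)]
            simp [h6]
        · left
          ext i
          by_cases h6 : i = a'
          · subst h6; simp [h5, ha', Ne.symm hne]
          · rw [hK' i (by simpa using h6)]
      have h7 : (insert a K).card = K.card + 1 := Finset.card_insert_of_notMem ha
      rcases h4 with h4 | h4
      · exact (hcon K' hE).1 (by rw [h4, h7])
      · apply (hcon K' hE).2
        rw [h4, Finset.card_insert_of_notMem, h7]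
        simp [Ne.symm hne, ha']
    -- `u` is fixed by the swap of the partner of `E (a,b)` and `E (a',b')`
    have hxbar : ρ (swap (E (a', b')) (E (a, !b))) u = u := by
      have h1 : τ * sp E a * τ = swap (E (a', b')) (E (a, !b)) := by
        have h2 : τ * sp E a * τ⁻¹ = swap (τ (E (a, false))) (τ (E (a, true))) := by
          rw [sp, mul_swap_eq_swap_mul]; simp
        have h3 : τ⁻¹ = τ := by rw [hτ, swap_inv]
        rw [h3] at h2
        rw [h2]
        have h4 : τ (E (a, b)) = E (a', b') := by rw [hτ, swap_apply_left]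
        have h5 : τ (E (a, !b)) = E (a, !b) := by
          rw [hτ]
          apply swap_apply_of_ne_of_ne
          · intro h; have := E.injective h; simp at this
          · intro h; exact hne (congrArg Prod.fst (E.injective h))
        cases b
        · simp only [Bool.not_false] at h5
          rw [h4, h5]; simp
        · simp only [Bool.not_true] at h5
          rw [h4, h5, swap_comm]; simp
      rw [← h1, map_mul_apply, map_mul_apply, hsa, hττ]
    have hx : ρ (swap (E (a, b)) (E (a, !b))) u = u := by
      have h1 := hfix a ha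
      cases b
      · exact h1
      · rw [swap_comm]; exact h1
    have h8 : τ = swap (E (a, b)) (E (a, !b)) * swap (E (a', b')) (E (a, !b)) *
        (swap (E (a, b)) (E (a, !b)))⁻¹ := by
      rw [mul_swap_eq_swap_mul, mul_inv_cancel_right, swap_apply_right, hτ, swap_comm]
      congr 1
      symm
      apply swap_apply_of_ne_of_ne
      · intro h; exact hne (congrArg Prod.fst (E.injective h)).symm
      · intro h; exact hne (congrArg Prod.fst (E.injective h)).symm
    rw [h8, swap_inv, map_mul_apply, map_mul_apply, hx, hxbar, hx]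
  -- `u` is fixed by all transpositions outside `K`
  apply hu0
  apply hhigh ((K ×ˢ (Finset.univ : Finset Bool)).map E.toEmbedding)ᶜ ?_ u hu
  · rw [mem_Inv]
    intro x hx y hy
    obtain ⟨⟨a, b⟩, rfl⟩ := E.surjective x
    obtain ⟨⟨a', b'⟩, rfl⟩ := E.surjective y
    have ha : a ∉ K := by
      intro h
      apply Finset.mem_compl.1 hx
      rw [Finset.mem_map]
      exact ⟨(a, b), by simp [h], rfl⟩
    have ha' : a' ∉ K := by
      intro h
      apply Finset.mem_compl.1 hy
      rw [Finset.mem_map]
      exact ⟨(a', b'), by simp [h], rfl⟩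
    by_cases h : a = a'
    · subst h
      by_cases hb : b = b'
      · subst hb
        rw [swap_self]
        exact congrArg (fun A : V →ₗ[ℝ] V => A u) (map_one ρ)
      · have h1 := hfix a ha
        cases b <;> cases b'
        · exact absurd rfl hb
        · exact h1
        · rw [swap_comm]; exact h1
        · exact absurd rfl hb
    · exact hcross a a' b b' ha ha' h
  · rw [Finset.card_compl, Finset.card_map, Finset.card_product, Finset.card_univ,
      Fintype.card_bool]
    have h1 : (K ×ˢ (Finset.univ : Finset Bool)).card ≤ Fintype.card α := by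
      rw [← Finset.card_map E.toEmbedding]
      exact Finset.card_le_univ _
    rw [Finset.card_product, Finset.card_univ, Fintype.card_bool] at h1
    omega

theorem ek_range {W : Submodule ℝ V} (hinv : ∀ g, ∀ w ∈ W, ρ g w ∈ W) (E : ι × Bool ≃ α) {k : ℕ}
    (hhigh : ∀ B : Finset α, Fintype.card α < B.card + k → ∀ w ∈ W, w ∈ Inv ρ B → w = 0)
    (n : ℕ) : ∀ K : Finset ι, EK ρ W E K → k ≤ 2 * K.card + n → 
    ∃ K' : Finset ι, EK ρ W E K' ∧ k ≤ 2 * K'.card ∧ 2 * K'.card ≤ max (2 * K.card) (k + 3) := by
  induction n using Nat.strong_induction_on with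
  | _ n ih =>
    intro K hK hn
    by_cases hk : k ≤ 2 * K.card
    · exact ⟨K, hK, hk, le_max_left _ _⟩
    · push Not at hk
      obtain ⟨K', hK', hc⟩ := ek_up hinv E hhigh hK hk
      obtain ⟨K'', h1, h2, h3⟩ := ih (n - 2) (by omega) K' hK' (by omega)
      refine ⟨K'', h1, h2, h3.trans ?_⟩
      omega

/-- the dimension bound for a pattern -/
theorem choose_le_of_ek [FiniteDimensional ℝ V] (hρ : ∀ g v, ‖ρ g v‖ = ‖v‖)
    {W : Submodule ℝ V} (hinv : ∀ g, ∀ w ∈ W, ρ g w ∈ W) (E : ι × Bool ≃ α)
    {K : Finset ι} (hK : EK ρ W E K) :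
    (Fintype.card ι).choose K.card ≤ Module.finrank ℝ W := by
  classical
  obtain ⟨u, hu, hu0, hpat⟩ := hK
  let S := {K' : Finset ι // K'.card = K.card}
  have hcardS : Fintype.card S = (Fintype.card ι).choose K.card := Fintype.card_finset_len _
  have hex : ∀ K' : S, ∃ π : Perm ι, ∀ i, π i ∈ K'.1 ↔ i ∈ K := by
    intro K'
    obtain ⟨φ⟩ : Nonempty (K ≃ K'.1) := by
      rw [← Fintype.card_eq, Fintype.card_coe, Fintype.card_coe, K'.2]
    refine ⟨φ.extendSubtype, fun i => ?_⟩
    constructor
    · intro h
      by_contra hi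
      exact Equiv.extendSubtype_not_mem φ i hi h
    · intro h
      exact Equiv.extendSubtype_mem φ i h
  choose π hπ using hex
  let g : S → Perm α := fun K' => E.symm.trans (((π K').prodCongr (Equiv.refl Bool)).trans E)
  have hg : ∀ (K' : S) (i : ι) (b : Bool), g K' (E (i, b)) = E (π K' i, b) := by
    intro K' i b
    simp [g]
  have hpat' : ∀ (K' : S) (i : ι), ρ (sp E i) (ρ (g K') u) =
      if i ∈ K'.1 then -(ρ (g K') u) else ρ (g K') u := by
    intro K' i
    obtain ⟨j, rfl⟩ := (π K').surjective i
    have h1 : sp E (π K' j) * g K' = g K' * sp E j := by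
      rw [sp, ← hg, ← hg, sp, mul_swap_eq_swap_mul]
    rw [← map_mul_apply, h1, map_mul_apply, hpat j]
    by_cases hj : j ∈ K
    · rw [if_pos hj, if_pos ((hπ K' j).2 hj), map_neg]
    · rw [if_neg hj, if_neg (fun h => hj ((hπ K' j).1 h))]
  have horth : ∀ K₁ K₂ : S, K₁ ≠ K₂ → ⟪ρ (g K₁) u, ρ (g K₂) u⟫_ℝ = 0 := by
    intro K₁ K₂ hne
    have hne' : K₁.1 ≠ K₂.1 := fun h => hne (Subtype.ext h)
    obtain ⟨i, hi⟩ : ∃ i, ¬ (i ∈ K₁.1 ↔ i ∈ K₂.1) := by
      by_contra hcon
      push Not at hcon
      exact hne' (Finset.ext hcon)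
    have h0 := inner_map hρ (sp E i) (ρ (g K₁) u) (ρ (g K₂) u)
    rw [hpat' K₁ i, hpat' K₂ i] at h0
    by_cases h1 : i ∈ K₁.1
    · have h2 : i ∉ K₂.1 := fun h => hi ⟨fun _ => h, fun _ => h1⟩
      rw [if_pos h1, if_neg h2, inner_neg_left] at h0
      linarith
    · have h2 : i ∈ K₂.1 := by
        by_contra h
        exact hi ⟨fun h' => absurd h' h1, fun h' => absurd h' h⟩
      rw [if_neg h1, if_pos h2, inner_neg_right] at h0
      linarith
  have hne0 : ∀ K' : S, ρ (g K') u ≠ 0 := by
    intro K' h
    have := hρ (g K') u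
    rw [h, norm_zero] at this
    exact hu0 (norm_eq_zero.1 this.symm)
  let w : S → W := fun K' => ⟨ρ (g K') u, hinv _ _ hu⟩
  have hli : LinearIndependent ℝ w := by
    apply linearIndependent_of_ne_zero_of_inner_eq_zero
    · intro K' h
      exact hne0 K' (congrArg Subtype.val h)
    · intro K₁ K₂ h
      exact horth K₁ K₂ h
  have h1 := hli.fintype_card_le_finrank
  rwa [hcardS] at h1

theorem choose_mono_mid {n a b : ℕ} (h : a ≤ b) (hb : a + b ≤ n) : n.choose a ≤ n.choose b := by
  rcases le_total (2 * b) n with h1 | h1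
  · exact choose_mono_half h h1
  · rw [← Nat.choose_symm (show b ≤ n by omega)]
    exact choose_mono_half (by omega) (by omega)

/-- **The dimension lemma.** -/
theorem choose_le_finrank_of_fixed [FiniteDimensional ℝ V] (hρ : ∀ g v, ‖ρ g v‖ = ‖v‖)
    {W : Submodule ℝ V} (hinv : ∀ g, ∀ w ∈ W, ρ g w ∈ W) (E : ι × Bool ≃ α) {k : ℕ}
    (hk : 2 * k + 4 ≤ Fintype.card α)
    (hhigh : ∀ B : Finset α, Fintype.card α < B.card + k → ∀ w ∈ W, w ∈ Inv ρ B → w = 0)
    (S : Finset ι) (hS : k + 1 ≤ 2 * S.card) {u : V} (hu : u ∈ W) (hu0 : u ≠ 0)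
    (hfix : ∀ i ∈ S, ρ (sp E i) u = u) :
    (Fintype.card α / 2).choose ((k + 1) / 2) ≤ Module.finrank ℝ W := by
  obtain ⟨K, hK, hE⟩ := ek_complete hinv E _ S ∅ rfl u hu hu0 (fun i hi => by
    rw [hfix i hi]; simp)
  have hcard : Fintype.card α = 2 * Fintype.card ι := by
    rw [← Fintype.card_congr E, Fintype.card_prod, Fintype.card_bool, mul_comm]
  have hKS : K.card + S.card ≤ Fintype.card ι := by
    rw [← Finset.card_union_of_disjoint]
    · exact Finset.card_le_univ _
    · rw [Finset.disjoint_left]
      intro i hi hi'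
      have := (hK i hi').1 hi
      simp at this
  obtain ⟨K', hE', h1, h2⟩ := ek_range hinv E hhigh k K hE (by omega)
  have h3 := choose_le_of_ek hρ hinv E hE'
  have h4 : Fintype.card α / 2 = Fintype.card ι := by omega
  rw [h4]
  refine (choose_mono_mid ?_ ?_).trans h3
  · omega
  · omega

end Vale.Agent.P162.H175
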