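import Vale.Agent.P162.S2.Iface
import Vale.Agent.P162.Defs

/-!
P162, stage 2, part G (1): translations, invariance of the low levels, trace decomposition,
and the return probability `ret q R = N! q^{*R}(1)`.
-/

namespace Vale.Agent.P162.S2.Abs

open Equiv
open scoped BigOperators InnerProductSpace

variable {α : Type*} [Fintype α] [DecidableEq α]

theorem lt_mul (g h : Perm α) : lt (g * h) = lt g * lt h := by
  ext f x
  simp [mul_assoc]

theorem rt_mul (g h : Perm α) : rt (g * h) = rt g * rt h := by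
  ext f x
  simp [mul_assoc]

theorem lt_one : lt (1 : Perm α) = 1 := by
  ext f x
  simp

theorem rt_one : rt (1 : Perm α) = 1 := by
  ext f x
  simp

theorem lt_lt (g h : Perm α) (f : FS α) : lt g (lt h f) = lt (g * h) f := by
  rw [lt_mul]; rfl

theorem rt_rt (g h : Perm α) (f : FS α) : rt g (rt h f) = rt (g * h) f := by
  rw [rt_mul]; rfl

theorem lt_rt (g h : Perm α) (f : FS α) : lt g (rt h f) = rt h (lt g f) := by
  ext x
  simp [mul_assoc]

theorem inner_eq_sum (f f' : FS α) : ⟪f, f'⟫_ℝ = ∑ h, f h * f' h := by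
  simp [PiLp.inner_apply, mul_comm]

theorem inner_lt (g : Perm α) (f f' : FS α) : ⟪lt g f, lt g f'⟫_ℝ = ⟪f, f'⟫_ℝ := by
  rw [inner_eq_sum, inner_eq_sum]
  exact Fintype.sum_equiv (Equiv.mulLeft g⁻¹) _ _ fun x => rfl

theorem inner_rt (g : Perm α) (f f' : FS α) : ⟪rt g f, rt g f'⟫_ℝ = ⟪f, f'⟫_ℝ := by
  rw [inner_eq_sum, inner_eq_sum]
  exact Fintype.sum_equiv (Equiv.mulRight g) _ _ fun x => rfl

theorem inner_lt_left (g : Perm α) (f f' : FS α) : ⟪lt g f, f'⟫_ℝ = ⟪f, lt g⁻¹ f'⟫_ℝ := by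
  rw [← inner_lt g⁻¹ (lt g f) f', lt_lt, inv_mul_cancel, lt_one]
  rfl

theorem inner_rt_left (g : Perm α) (f f' : FS α) : ⟪rt g f, f'⟫_ℝ = ⟪f, rt g⁻¹ f'⟫_ℝ := by
  rw [← inner_rt g⁻¹ (rt g f) f', rt_rt, inv_mul_cancel, rt_one]
  rfl

theorem lt_mem_InvS (g : Perm α) {B : Finset α} {f : FS α} (hf : f ∈ InvS B) :
    lt g f ∈ InvS (B.map g.toEmbedding) := by
  intro x hx y hy
  rw [Finset.mem_map] at hx hy
  obtain ⟨x', hx', rfl⟩ := hx
  obtain ⟨y', hy', rfl⟩ := hy
  have h1 : swap (g x') (g y') * g = g * swap x' y' := by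
    rw [Equiv.swap_apply_apply]
    simp
  have h2 := hf x' hx' y' hy'
  calc lt (swap (g.toEmbedding x') (g.toEmbedding y')) (lt g f)
      = lt (swap (g x') (g y') * g) f := by rw [lt_lt]; rfl
    _ = lt g (lt (swap x' y') f) := by rw [h1, lt_lt]
    _ = lt g f := by rw [h2]

theorem rt_mem_InvS (g : Perm α) {B : Finset α} {f : FS α} (hf : f ∈ InvS B) :
    rt g f ∈ InvS B := by
  intro x hx y hy
  rw [lt_rt, hf x hx y hy]

theorem lt_mem_LowS (g : Perm α) (k : ℕ) {f : FS α} (hf : f ∈ LowS α k) : lt g f ∈ LowS α k := by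
  have h : LowS α k ≤ (LowS α k).comap (lt g) := by
    refine iSup₂_le fun B hB f hf => ?_
    refine Submodule.mem_iSup_of_mem (B.map g.toEmbedding) ?_
    refine Submodule.mem_iSup_of_mem (by rwa [Finset.card_map]) ?_
    exact lt_mem_InvS g hf
  exact h hf

theorem rt_mem_LowS (g : Perm α) (k : ℕ) {f : FS α} (hf : f ∈ LowS α k) : rt g f ∈ LowS α k := by
  have h : LowS α k ≤ (LowS α k).comap (rt g) := by
    refine iSup₂_le fun B hB f hf => ?_
    refine Submodule.mem_iSup_of_mem B ?_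
    refine Submodule.mem_iSup_of_mem hB ?_
    exact rt_mem_InvS g hf
  exact h hf

theorem lt_mem_LowS_orth (g : Perm α) (k : ℕ) {f : FS α} (hf : f ∈ (LowS α k)ᗮ) :
    lt g f ∈ (LowS α k)ᗮ := by
  rw [Submodule.mem_orthogonal] at hf ⊢
  intro u hu
  have h := hf (lt g⁻¹ u) (lt_mem_LowS g⁻¹ k hu)
  rw [inner_lt_left, inv_inv] at h
  exact h

theorem rt_mem_LowS_orth (g : Perm α) (k : ℕ) {f : FS α} (hf : f ∈ (LowS α k)ᗮ) :
    rt g f ∈ (LowS α k)ᗮ := by
  rw [Submodule.mem_orthogonal] at hf ⊢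
  intro u hu
  have h := hf (rt g⁻¹ u) (rt_mem_LowS g⁻¹ k hu)
  rw [inner_rt_left, inv_inv] at h
  exact h

/-- the trace is the sum of the traces on a subspace and on its orthogonal complement -/
theorem trOn_add_trOn_orth (A : FS α →ₗ[ℝ] FS α) (E : Submodule ℝ (FS α)) :
    trOn A E + trOn A Eᗮ = LinearMap.trace ℝ (FS α) A := by
  unfold trOn
  rw [← map_add]
  congr 1
  ext1 f
  have h : E.starProjection f + Eᗮ.starProjection f = f :=
    Submodule.starProjection_add_starProjection_orthogonal f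
  simp only [LinearMap.add_apply, LinearMap.comp_apply, ContinuousLinearMap.coe_coe]
  rw [← map_add, h]

/-! ### the return probability -/

theorem op_rt (q : Perm α → ℝ) (g : Perm α) (f : FS α) : op q (rt g f) = rt g (op q f) := by
  ext h
  simp [op_apply, mul_assoc]

theorem op_pow_rt (q : Perm α → ℝ) (R : ℕ) (g : Perm α) (f : FS α) :
    (op q ^ R) (rt g f) = rt g ((op q ^ R) f) := by
  induction R with
  | zero => simp
  | succ R ih => rw [pow_succ', Module.End.mul_apply, Module.End.mul_apply, ih, op_rt]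

/-- the unit mass at `1` -/
noncomputable def dl : FS α := EuclideanSpace.single (1 : Perm α) (1 : ℝ)

theorem op_pow_dl (q : Perm α → ℝ) (R : ℕ) (h : Perm α) :
    (op q ^ R) dl h = convPow q R h := by
  induction R generalizing h with
  | zero =>
    simp [convPow, dl, PiLp.single_apply]
  | succ R ih =>
    rw [pow_succ', Module.End.mul_apply, op_apply]
    simp only [convPow, conv, ih]

theorem ret_eq (q : Perm α → ℝ) (R : ℕ) :
    ret q R = (Fintype.card α).factorial * convPow q R 1 := by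
  unfold ret
  rw [LinearMap.trace_eq_sum_inner _ (EuclideanSpace.basisFun (Perm α) ℝ)]
  have h : ∀ g : Perm α, ⟪EuclideanSpace.basisFun (Perm α) ℝ g,
      (op q ^ R) (EuclideanSpace.basisFun (Perm α) ℝ g)⟫_ℝ = convPow q R 1 := by
    intro g
    have h1 : (EuclideanSpace.basisFun (Perm α) ℝ g : FS α) = rt g⁻¹ dl := by
      ext h
      simp only [EuclideanSpace.basisFun_apply, rt_apply, dl, PiLp.single_apply]
      congr 1
      rw [eq_iff_iff, mul_inv_eq_one]
    rw [h1, op_pow_rt, inner_rt, inner_eq_sum]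
    simp only [op_pow_dl]
    simp [dl, PiLp.single_apply]
  rw [Finset.sum_congr rfl fun g _ => h g]
  simp [Fintype.card_perm]

end Vale.Agent.P162.S2.Abs
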