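import Vale.Agent.P162.H175.G1
import Vale.Agent.P162.H561.ConvFix

/-!
P162, stage 2, part G (2): the bound for `ZK` (from helper561's colouring lemma) and numerics.
-/

namespace Vale.Agent.P162.S2.Abs

open Equiv Filter
open scoped BigOperators InnerProductSpace Topology

variable {α : Type*} [Fintype α] [DecidableEq α]

theorem fixK_eq (K : ℕ) (σ : Perm α) : fixK K σ = H561.FixK K σ := by
  unfold fixK H561.FixK
  rw [Nat.card_eq_fintype_card]

theorem ZK_nonneg {q : Perm α → ℝ} (hq : ∀ g, 0 ≤ q g) (K : ℕ) : 0 ≤ ZK q K := by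
  unfold ZK
  exact Finset.sum_nonneg fun g _ => Finset.sum_nonneg fun g' _ =>
    mul_nonneg (mul_nonneg (hq _) (hq _)) (Nat.cast_nonneg _)

theorem ZK_le {q : Perm α → ℝ} {κ : ℝ} (hD : Data q κ) (hN : 1 ≤ Fintype.card α) {K : ℕ}
    (hK : 1 ≤ K) :
    ZK q K ≤ (Real.exp 1 * Fintype.card α * (Fintype.card α + 1)) ^ (K ^ 2) *
      Real.exp (2 * √K * (Fintype.card α : ℝ) ^ (-κ) * Fintype.card α) := by
  have h := H561.sum_sum_fix_le hN hK q hD.nonneg hD.class_fn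
    (Λ := (Fintype.card α : ℝ) ^ (-κ)) (fun S => by
      have := hD.fix_le S
      convert this using 2)
  have hN0 : (0 : ℝ) ≤ Fintype.card α := Nat.cast_nonneg _
  have hΛ0 : 0 ≤ (Fintype.card α : ℝ) ^ (-κ) := Real.rpow_nonneg hN0 _
  unfold ZK
  simp only [fixK_eq]
  refine h.trans ?_
  apply mul_le_mul_of_nonneg_left _ (by positivity)
  set Λ := (Fintype.card α : ℝ) ^ (-κ)
  have ht : 1 ≤ √(K : ℝ) := by
    rw [Real.one_le_sqrt]; exact_mod_cast hK
  have h1 : 1 + (√(K : ℝ) - 1) * Λ ≤ Real.exp (√K * Λ) := by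
    have := Real.add_one_le_exp (√K * Λ)
    nlinarith
  have h0 : 0 ≤ 1 + (√(K : ℝ) - 1) * Λ := by nlinarith
  calc ((1 + (√(K : ℝ) - 1) * Λ) ^ Fintype.card α) ^ 2
      ≤ ((Real.exp (√K * Λ)) ^ Fintype.card α) ^ 2 :=
        pow_le_pow_left₀ (pow_nonneg h0 _) (pow_le_pow_left₀ h0 h1 _) _
    _ = Real.exp (2 * √K * Λ * Fintype.card α) := by
        rw [← pow_mul, ← Real.exp_nat_mul]
        congr 1
        push_cast
        ring

/-- `log` of the bound for `ZK q ⌈N^(κ/2)⌉` is at most `C N^(1 - 3κ/4)` -/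
theorem log_bound {κ : ℝ} (hκ : 0 < κ) (hκ' : κ ≤ 1 / 4) {n : ℝ} (hn : 1 ≤ n) :
    (Real.exp 1 * n * (n + 1)) ^ (⌈n ^ (κ / 2)⌉₊ ^ 2) *
      Real.exp (2 * √(⌈n ^ (κ / 2)⌉₊ : ℝ) * n ^ (-κ) * n) ≤
    Real.exp ((4 * (2 + 8 / κ) + 4) * n ^ (1 - 3 * κ / 4)) := by
  have hn0 : 0 < n := by linarith
  have hp1 : 1 ≤ n ^ (κ / 2) := Real.one_le_rpow hn (by positivity)
  have hK : (⌈n ^ (κ / 2)⌉₊ : ℝ) ≤ 2 * n ^ (κ / 2) := by
    have := Nat.ceil_lt_add_one (a := n ^ (κ / 2)) (by positivity)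
    linarith
  set K : ℝ := (⌈n ^ (κ / 2)⌉₊ : ℝ) with hKdef
  have hK0 : 0 ≤ K := Nat.cast_nonneg _
  have hK2 : K ^ 2 ≤ 4 * n ^ κ := by
    have h1 : K ^ 2 ≤ (2 * n ^ (κ / 2)) ^ 2 := pow_le_pow_left₀ hK0 hK 2
    have h2 : (2 * n ^ (κ / 2)) ^ 2 = 4 * n ^ κ := by
      have h3 : (n ^ (κ / 2)) ^ 2 = n ^ κ := by
        rw [← Real.rpow_natCast (n ^ (κ / 2)) 2, ← Real.rpow_mul hn0.le]
        congr 1
        push_cast
        ring
      rw [mul_pow, h3]
      norm_num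
    linarith
  have hsq : √K ≤ 2 * n ^ (κ / 4) := by
    rw [Real.sqrt_le_left (by positivity)]
    have h2 : (2 * n ^ (κ / 4)) ^ 2 = 4 * n ^ (κ / 2) := by
      have h3 : (n ^ (κ / 4)) ^ 2 = n ^ (κ / 2) := by
        rw [← Real.rpow_natCast (n ^ (κ / 4)) 2, ← Real.rpow_mul hn0.le]
        congr 1
        push_cast
        ring
      rw [mul_pow, h3]
      norm_num
    rw [h2]
    nlinarith
  -- log (e n (n+1)) ≤ 2 + 2 log n
  have hlog : Real.log (Real.exp 1 * n * (n + 1)) ≤ 2 + 2 * Real.log n := by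
    have h1 : Real.exp 1 * n * (n + 1) ≤ Real.exp 1 * n * (Real.exp 1 * n) := by
      apply mul_le_mul_of_nonneg_left _ (by positivity)
      have : (2 : ℝ) ≤ Real.exp 1 := by
        have := Real.add_one_le_exp (1 : ℝ)
        linarith
      nlinarith
    have h2 := Real.log_le_log (by positivity) h1
    refine h2.trans (le_of_eq ?_)
    rw [Real.log_mul (by positivity) (by positivity), Real.log_mul (by positivity) (by positivity),
      Real.log_exp]
    ring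
  have hlogn : Real.log n ≤ n ^ (κ / 4) / (κ / 4) := Real.log_le_rpow_div hn0.le (by positivity)
  have hlogn' : 2 + 2 * Real.log n ≤ (2 + 8 / κ) * n ^ (κ / 4) := by
    have h1 : 1 ≤ n ^ (κ / 4) := Real.one_le_rpow hn (by positivity)
    have h2 : n ^ (κ / 4) / (κ / 4) = 4 / κ * n ^ (κ / 4) := by
      field_simp
    rw [h2] at hlogn
    have h3 : (2 + 8 / κ) * n ^ (κ / 4) = 2 * n ^ (κ / 4) + 2 * (4 / κ * n ^ (κ / 4)) := by ring
    rw [h3]
    linarith
  have hlog0 : 0 ≤ Real.log (Real.exp 1 * n * (n + 1)) := by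
    apply Real.log_nonneg
    have : (1 : ℝ) ≤ Real.exp 1 := Real.one_le_exp (by norm_num)
    nlinarith [mul_nonneg (sub_nonneg.2 this) (sub_nonneg.2 hn)]
  have e1 : (Real.exp 1 * n * (n + 1)) ^ (⌈n ^ (κ / 2)⌉₊ ^ 2) =
      Real.exp (K ^ 2 * Real.log (Real.exp 1 * n * (n + 1))) := by
    rw [mul_comm (K ^ 2), Real.exp_mul, Real.exp_log (by positivity), hKdef]
    rw [← Real.rpow_natCast]
    push_cast
    rfl
  rw [e1, ← Real.exp_add]
  apply Real.exp_le_exp.2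
  have h5 : K ^ 2 * Real.log (Real.exp 1 * n * (n + 1)) ≤
      4 * (2 + 8 / κ) * n ^ (1 - 3 * κ / 4) := by
    calc K ^ 2 * Real.log (Real.exp 1 * n * (n + 1))
        ≤ (4 * n ^ κ) * ((2 + 8 / κ) * n ^ (κ / 4)) :=
          mul_le_mul hK2 (hlog.trans hlogn') hlog0 (by positivity)
      _ = 4 * (2 + 8 / κ) * (n ^ κ * n ^ (κ / 4)) := by ring
      _ = 4 * (2 + 8 / κ) * n ^ (κ + κ / 4) := by rw [← Real.rpow_add hn0]
      _ ≤ 4 * (2 + 8 / κ) * n ^ (1 - 3 * κ / 4) := by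
          apply mul_le_mul_of_nonneg_left _ (by positivity)
          exact Real.rpow_le_rpow_of_exponent_le hn (by linarith)
  have h6 : 2 * √K * n ^ (-κ) * n ≤ 4 * n ^ (1 - 3 * κ / 4) := by
    calc 2 * √K * n ^ (-κ) * n ≤ 2 * (2 * n ^ (κ / 4)) * n ^ (-κ) * n := by gcongr
      _ = 4 * (n ^ (κ / 4) * n ^ (-κ) * n ^ (1 : ℝ)) := by rw [Real.rpow_one]; ring
      _ = 4 * n ^ (κ / 4 + -κ + 1) := by rw [Real.rpow_add hn0, Real.rpow_add hn0]
      _ = 4 * n ^ (1 - 3 * κ / 4) := by congr 2; ring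
  linarith

/-- the exponent of the high level part -/
noncomputable def expo (c κ : ℝ) (n : ℝ) : ℝ :=
  c * Real.log 2 - n ^ (1 - 3 * κ / 4) *
    (c * Real.log 2 * n ^ (κ / 4) - (4 / κ) * (4 * (2 + 8 / κ) + 4))

theorem tendsto_expo {c κ : ℝ} (hc : 0 < c) (hκ : 0 < κ) (hκ' : κ ≤ 1 / 4) :
    Tendsto (fun n : ℕ => expo c κ n) atTop atBot := by
  have hlog2 : 0 < Real.log 2 := Real.log_pos (by norm_num)
  have h1 : Tendsto (fun n : ℕ => (n : ℝ) ^ (1 - 3 * κ / 4)) atTop atTop :=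
    (tendsto_rpow_atTop (by linarith)).comp tendsto_natCast_atTop_atTop
  have h2 : Tendsto (fun n : ℕ => (n : ℝ) ^ (κ / 4)) atTop atTop :=
    (tendsto_rpow_atTop (by positivity)).comp tendsto_natCast_atTop_atTop
  have h3 : Tendsto (fun n : ℕ => c * Real.log 2 * (n : ℝ) ^ (κ / 4)
      - (4 / κ) * (4 * (2 + 8 / κ) + 4)) atTop atTop := by
    apply tendsto_atTop_add_const_right
    exact h2.const_mul_atTop (by positivity)
  have h4 := h1.atTop_mul_atTop₀ h3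
  unfold expo
  have h5 := tendsto_neg_atTop_atBot.comp h4
  have h6 := tendsto_atBot_add_const_left atTop (c * Real.log 2) h5
  refine h6.congr fun n => ?_
  simp only [Function.comp]
  ring

theorem tendsto_exp_expo {c κ : ℝ} (hc : 0 < c) (hκ : 0 < κ) (hκ' : κ ≤ 1 / 4) :
    Tendsto (fun n : ℕ => 2 * Real.exp (expo c κ n)) atTop (𝓝 0) := by
  have := (Real.tendsto_exp_atBot.comp (tendsto_expo hc hκ hκ')).const_mul 2
  simpa using this

end Vale.Agent.P162.S2.Abs
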