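import Vale.Agent.P162.H175.G2

/-!
P162, stage 2, part G (3): the assembly `PropD → PropE → PropF κ → AB κ`.
-/

namespace Vale.Agent.P162.S2.Abs

open Equiv Filter
open scoped BigOperators InnerProductSpace Topology

theorem exponent_le {c κ : ℝ} (hc : 0 < c) (hκ : 0 < κ) (hκ' : κ ≤ 1 / 4) {n : ℝ} (hn : 1 ≤ n)
    {M Z : ℝ} {R : ℕ} (hR : 8 / κ + 1 ≤ R)
    (hM : M = (2 : ℝ) ^ (-(c * (⌊n ^ (1 - κ / 2)⌋₊ : ℝ)))) (hZ0 : 0 ≤ Z)
    (hZ : Z ≤ Real.exp ((4 * (2 + 8 / κ) + 4) * n ^ (1 - 3 * κ / 4))) :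
    2 * M ^ ((R : ℝ) - 4 / (κ / 2)) * Z ^ (2 / (κ / 2)) ≤ 2 * Real.exp (expo c κ n) := by
  have hn0 : 0 < n := by linarith
  have hlog2 : 0 < Real.log 2 := Real.log_pos (by norm_num)
  have e4 : 4 / (κ / 2) = 8 / κ := by field_simp; norm_num
  have e2 : 2 / (κ / 2) = 4 / κ := by field_simp; norm_num
  rw [e4, e2]
  have hM0 : 0 < M := by rw [hM]; positivity
  have hM1 : M ≤ 1 := by
    rw [hM]
    apply Real.rpow_le_one_of_one_le_of_nonpos (by norm_num)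
    have : 0 ≤ c * (⌊n ^ (1 - κ / 2)⌋₊ : ℝ) := by positivity
    linarith
  have h1 : M ^ ((R : ℝ) - 8 / κ) ≤ M := by
    calc M ^ ((R : ℝ) - 8 / κ) ≤ M ^ (1 : ℝ) :=
          Real.rpow_le_rpow_of_exponent_ge hM0 hM1 (by linarith)
      _ = M := Real.rpow_one M
  have hM' : M ≤ Real.exp (c * Real.log 2 - c * Real.log 2 * n ^ (1 - κ / 2)) := by
    have hfl : n ^ (1 - κ / 2) - 1 ≤ (⌊n ^ (1 - κ / 2)⌋₊ : ℝ) := (Nat.sub_one_lt_floor _).le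
    have e : M = Real.exp (-(c * (⌊n ^ (1 - κ / 2)⌋₊ : ℝ)) * Real.log 2) := by
      rw [hM, Real.rpow_def_of_pos (by norm_num : (0 : ℝ) < 2), mul_comm (Real.log 2)]
    rw [e]
    apply Real.exp_le_exp.2
    have h : c * Real.log 2 * (n ^ (1 - κ / 2) - 1) ≤
        c * Real.log 2 * (⌊n ^ (1 - κ / 2)⌋₊ : ℝ) := by gcongr
    nlinarith [h]
  have hZ' : Z ^ (4 / κ) ≤
      Real.exp ((4 / κ) * ((4 * (2 + 8 / κ) + 4) * n ^ (1 - 3 * κ / 4))) := by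
    calc Z ^ (4 / κ) ≤ (Real.exp ((4 * (2 + 8 / κ) + 4) * n ^ (1 - 3 * κ / 4))) ^ (4 / κ) :=
          Real.rpow_le_rpow hZ0 hZ (by positivity)
      _ = _ := by rw [← Real.exp_mul]; congr 1; ring
  calc 2 * M ^ ((R : ℝ) - 8 / κ) * Z ^ (4 / κ)
      ≤ 2 * Real.exp (c * Real.log 2 - c * Real.log 2 * n ^ (1 - κ / 2)) *
        Real.exp ((4 / κ) * ((4 * (2 + 8 / κ) + 4) * n ^ (1 - 3 * κ / 4))) := by
        gcongr
        exact h1.trans hM'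
    _ = 2 * Real.exp (expo c κ n) := by
        rw [mul_assoc, ← Real.exp_add]
        congr 2
        unfold expo
        have e3 : n ^ (1 - κ / 2) = n ^ (1 - 3 * κ / 4) * n ^ (κ / 4) := by
          rw [← Real.rpow_add hn0]
          congr 1
          ring
        rw [e3]
        ring

/-- **Part G.** -/
theorem AB_of {κ : ℝ} (hκ : 0 < κ) (hκ' : κ ≤ 1 / 4) (hD : PropD) (hE : PropE)
    (hF : PropF κ) : AB κ := by
  obtain ⟨c, hc, k₁, hE⟩ := hE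
  obtain ⟨R₀, N₁, C, hF⟩ := hF
  refine ⟨2 * (R₀ + ⌈8 / κ⌉₊ + 1), fun ε hε => ?_⟩
  set R : ℕ := 2 * (R₀ + ⌈8 / κ⌉₊ + 1) with hRdef
  have hR1 : 8 / κ + 1 ≤ (R : ℝ) := by
    have h1 : 8 / κ ≤ ⌈8 / κ⌉₊ := Nat.le_ceil _
    have h2 : 0 ≤ 8 / κ := by positivity
    have h3 : (R : ℝ) = 2 * ((R₀ : ℝ) + (⌈8 / κ⌉₊ : ℝ) + 1) := by rw [hRdef]; push_cast; ring
    rw [h3]
    have h4 : (0 : ℝ) ≤ R₀ := Nat.cast_nonneg _
    linarith
  have hR0 : R ≥ R₀ := by omega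
  have hReven : Even R := ⟨R₀ + ⌈8 / κ⌉₊ + 1, by omega⟩
  have hcast := tendsto_natCast_atTop_atTop (R := ℝ)
  -- eventual conditions
  have ev1 : ∀ᶠ n : ℕ in atTop, (k₁ : ℝ) ≤ (n : ℝ) ^ (1 - κ / 2) :=
    ((tendsto_rpow_atTop (by linarith : 0 < 1 - κ / 2)).comp hcast).eventually_ge_atTop _
  have ev2 : ∀ᶠ n : ℕ in atTop, 2 * Real.exp (expo c κ n) < ε / 2 :=
    (tendsto_exp_expo hc hκ hκ').eventually (gt_mem_nhds (by positivity))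
  have ev3 : ∀ᶠ n : ℕ in atTop, C / (n : ℝ) < ε / 2 :=
    (tendsto_const_div_atTop_nhds_zero_nat C).eventually (gt_mem_nhds (by positivity))
  obtain ⟨N₀, hN₀⟩ := eventually_atTop.1 (ev1.and (ev2.and (ev3.and
    ((eventually_ge_atTop 1).and (eventually_ge_atTop N₁)))))
  refine ⟨N₀, fun α _ _ q hα hq => ?_⟩
  obtain ⟨g1, g2, g3, g4, g5⟩ := hN₀ _ hα
  set N := Fintype.card α with hN
  have hN1 : (1 : ℝ) ≤ N := by exact_mod_cast g4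
  set k0 : ℕ := ⌊(N : ℝ) ^ (1 - κ / 2)⌋₊ with hk0
  have hk1 : k₁ ≤ k0 := Nat.le_floor g1
  have hk2 : (k0 : ℝ) ≤ (N : ℝ) ^ (1 - κ / 2) := Nat.floor_le (by positivity)
  have hk3 : k0 ≤ N := by
    have h : (N : ℝ) ^ (1 - κ / 2) ≤ (N : ℝ) ^ (1 : ℝ) :=
      Real.rpow_le_rpow_of_exponent_le hN1 (by linarith)
    rw [Real.rpow_one] at h
    exact_mod_cast hk2.trans h
  -- low levels
  have hlow := hF α q g5 hq R hR0 hReven k0 hk2
  -- high levels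
  set M : ℝ := (2 : ℝ) ^ (-(c * (k0 : ℝ))) with hM
  have hM0 : 0 ≤ M := by positivity
  have hM1 : M ≤ 1 := by
    rw [hM]
    apply Real.rpow_le_one_of_one_le_of_nonpos (by norm_num)
    have : 0 ≤ c * (k0 : ℝ) := by positivity
    linarith
  have hR4 : 4 / (κ / 2) ≤ (R : ℝ) := by
    have e4 : 4 / (κ / 2) = 8 / κ := by field_simp; norm_num
    rw [e4]
    linarith
  have hhigh := hD α q hq.nonneg hq.symm hq.class_fn hq.psd (κ / 2) M R (LowS α k0)ᗮ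
    (by positivity) (by linarith) hM0 hM1 hR4 g4
    (fun g f hf => lt_mem_LowS_orth g k0 hf) (fun g f hf => rt_mem_LowS_orth g k0 hf)
    (fun f hf => hE α q κ hq k0 hk1 hk3 f hf)
  have hK1 : 1 ≤ ⌈(N : ℝ) ^ (κ / 2)⌉₊ := by
    have : 0 < (N : ℝ) ^ (κ / 2) := by positivity
    exact Nat.one_le_iff_ne_zero.2 (Nat.ceil_pos.2 this).ne'
  have hZ := (ZK_le hq g4 hK1).trans (log_bound hκ hκ' hN1)
  have hexp := exponent_le hc hκ hκ' hN1 hR1 hM (ZK_nonneg hq.nonneg _) hZ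
  have hsum := trOn_add_trOn_orth (op q ^ R) (LowS α k0)
  unfold ret
  rw [← hsum]
  linarith

end Vale.Agent.P162.S2.Abs
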