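import Vale.Agent.P162.H175.G1

/-!
P162, stage 2: left translation as a homomorphism, symmetry and centrality of `op q`.
-/

namespace Vale.Agent.P162.S2.Abs

open Equiv
open scoped BigOperators InnerProductSpace

variable {α : Type*} [Fintype α] [DecidableEq α]

/-- left translation as a representation -/
noncomputable def ltHom : Perm α →* (FS α →ₗ[ℝ] FS α) where
  toFun := lt
  map_one' := lt_one
  map_mul' := lt_mul

@[simp] theorem ltHom_apply (g : Perm α) : (ltHom g : FS α →ₗ[ℝ] FS α) = lt g := rfl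

theorem norm_lt (g : Perm α) (f : FS α) : ‖lt g f‖ = ‖f‖ := by
  rw [← sq_eq_sq₀ (norm_nonneg _) (norm_nonneg _), ← real_inner_self_eq_norm_sq, inner_lt,
    real_inner_self_eq_norm_sq]

theorem norm_rt (g : Perm α) (f : FS α) : ‖rt g f‖ = ‖f‖ := by
  rw [← sq_eq_sq₀ (norm_nonneg _) (norm_nonneg _), ← real_inner_self_eq_norm_sq, inner_rt,
    real_inner_self_eq_norm_sq]

theorem op_eval (q : Perm α → ℝ) (f : FS α) : op q f = ∑ g, q g • lt g f := by
  simp [op]

theorem op_lt {q : Perm α → ℝ} (hq : ∀ x g, q (x * g * x⁻¹) = q g) (g : Perm α) (f : FS α) :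
    op q (lt g f) = lt g (op q f) := by
  rw [op_eval, op_eval, map_sum]
  refine Fintype.sum_equiv (MulAut.conj g⁻¹).toEquiv _ _ fun h => ?_
  simp only [MulEquiv.toEquiv_eq_coe, EquivLike.coe_coe, MulAut.conj_apply, map_smul, lt_lt]
  rw [hq]
  congr 2
  group

theorem inner_op {q : Perm α → ℝ} (hq : ∀ g, q g⁻¹ = q g) (f f' : FS α) :
    ⟪op q f, f'⟫_ℝ = ⟪f, op q f'⟫_ℝ := by
  rw [op_eval, op_eval, sum_inner, inner_sum]
  refine Fintype.sum_equiv (Equiv.inv (Perm α)) _ _ fun g => ?_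
  rw [inner_smul_left, inner_smul_right, inner_lt_left]
  simp [hq]

theorem op_isSymmetric {q : Perm α → ℝ} (hq : ∀ g, q g⁻¹ = q g) : (op q).IsSymmetric :=
  fun f f' => inner_op hq f f'

end Vale.Agent.P162.S2.Abs
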