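import Vale.Agent.P162.H175.G1

/-!
P162, stage 2, bridge for part E: for a matching `M` the operator `PM M` is the orthogonal
projection onto the space `InvL M` of the functions fixed by all the swaps of `M`.
-/

namespace Vale.Agent.P162.S2.Abs

open Equiv
open scoped BigOperators InnerProductSpace

variable {α : Type*} [Fintype α] [DecidableEq α]

/-- functions fixed by the swaps of the pairs of `M` -/
def InvL (M : List (α × α)) : Submodule ℝ (FS α) where
  carrier := {f | ∀ e ∈ M, lt (swap e.1 e.2) f = f}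
  add_mem' := by
    intro f f' hf hf' e he
    rw [map_add, hf e he, hf' e he]
  zero_mem' := by intro e _; simp
  smul_mem' := by
    intro c f hf e he
    rw [map_smul, hf e he]

theorem mem_InvL {M : List (α × α)} {f : FS α} :
    f ∈ InvL M ↔ ∀ e ∈ M, lt (swap e.1 e.2) f = f := Iff.rfl

/-- `(1 + lt (swap a b)) / 2` -/
noncomputable def Te (e : α × α) : FS α →ₗ[ℝ] FS α := (1 / 2 : ℝ) • (1 + lt (swap e.1 e.2))

theorem Te_apply (e : α × α) (f : FS α) :
    Te e f = (1 / 2 : ℝ) • (f + lt (swap e.1 e.2) f) := by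
  simp [Te]

theorem Te_of_fix {e : α × α} {f : FS α} (h : lt (swap e.1 e.2) f = f) : Te e f = f := by
  rw [Te_apply, h, ← two_smul ℝ f, smul_smul]
  norm_num

theorem lt_swap_swap (x y : α) (f : FS α) : lt (swap x y) (lt (swap x y) f) = f := by
  rw [lt_lt, Equiv.swap_mul_self, lt_one]
  rfl

theorem lt_Te (e : α × α) (f : FS α) : lt (swap e.1 e.2) (Te e f) = Te e f := by
  rw [Te_apply, map_smul, map_add, lt_swap_swap, add_comm]

theorem inner_Te (e : α × α) (f g : FS α) : ⟪Te e f, g⟫_ℝ = ⟪f, Te e g⟫_ℝ := by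
  rw [Te_apply, Te_apply, inner_smul_left, inner_smul_right, inner_add_left, inner_add_right,
    inner_lt_left, Equiv.swap_inv]
  simp

theorem Te_lt_comm {e : α × α} {g : Perm α} (h : swap e.1 e.2 * g = g * swap e.1 e.2)
    (f : FS α) : Te e (lt g f) = lt g (Te e f) := by
  rw [Te_apply, Te_apply, map_smul, map_add, lt_lt, lt_lt, h]

theorem PM_nil : PM ([] : List (α × α)) = 1 := by simp [PM]

theorem PM_cons (e : α × α) (M : List (α × α)) : PM (e :: M) = Te e * PM M := by
  simp [PM, Te]

theorem PM_cons_apply (e : α × α) (M : List (α × α)) (f : FS α) :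
    PM (e :: M) f = Te e (PM M f) := by
  rw [PM_cons]; rfl

theorem PM_of_mem {M : List (α × α)} {f : FS α} (hf : f ∈ InvL M) : PM M f = f := by
  induction M with
  | nil => simp [PM_nil]
  | cons e M ih =>
    rw [PM_cons_apply, ih fun e' he' => hf e' (List.mem_cons_of_mem _ he')]
    exact Te_of_fix (hf e List.mem_cons_self)

/-- pairwise commuting swaps -/
def CommL (M : List (α × α)) : Prop :=
  M.Pairwise fun e e' => swap e.1 e.2 * swap e'.1 e'.2 = swap e'.1 e'.2 * swap e.1 e.2

theorem lt_PM_comm {e : α × α} {M : List (α × α)}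
    (h : ∀ e' ∈ M, swap e.1 e.2 * swap e'.1 e'.2 = swap e'.1 e'.2 * swap e.1 e.2) (f : FS α) :
    lt (swap e.1 e.2) (PM M f) = PM M (lt (swap e.1 e.2) f) := by
  induction M with
  | nil => simp [PM_nil]
  | cons e' M ih =>
    rw [PM_cons_apply, PM_cons_apply, ← ih fun e'' he'' => h e'' (List.mem_cons_of_mem _ he'')]
    rw [Te_lt_comm]
    exact (h e' List.mem_cons_self).symm

theorem Te_PM_comm {e : α × α} {M : List (α × α)}
    (h : ∀ e' ∈ M, swap e.1 e.2 * swap e'.1 e'.2 = swap e'.1 e'.2 * swap e.1 e.2) (f : FS α) :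
    Te e (PM M f) = PM M (Te e f) := by
  rw [Te_apply, Te_apply, lt_PM_comm h, map_smul, map_add]

theorem inner_PM {M : List (α × α)} (hM : CommL M) (f g : FS α) :
    ⟪PM M f, g⟫_ℝ = ⟪f, PM M g⟫_ℝ := by
  induction M generalizing f g with
  | nil => simp [PM_nil]
  | cons e M ih =>
    rw [CommL, List.pairwise_cons] at hM
    rw [PM_cons_apply, inner_Te, ih hM.2, ← Te_PM_comm hM.1, PM_cons_apply]

theorem PM_mem {M : List (α × α)} (hM : CommL M) (f : FS α) : PM M f ∈ InvL M := by
  induction M generalizing f with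
  | nil => intro e he; simp at he
  | cons e M ih =>
    rw [CommL, List.pairwise_cons] at hM
    intro e' he'
    rw [PM_cons_apply]
    rcases List.mem_cons.1 he' with rfl | he'
    · rw [lt_Te]
    · rw [← Te_lt_comm (hM.1 e' he'), ih hM.2 f e' he']

theorem PM_eq_starProjection {M : List (α × α)} (hM : CommL M) (f : FS α) :
    (InvL M).starProjection f = PM M f := by
  apply Submodule.eq_starProjection_of_mem_of_inner_eq_zero (PM_mem hM f)
  intro w hw
  rw [inner_sub_left, inner_PM hM, PM_of_mem hw, sub_self]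

theorem inner_PM_self {M : List (α × α)} (hM : CommL M) (f : FS α) :
    ⟪PM M f, f⟫_ℝ = ‖(InvL M).starProjection f‖ ^ 2 := by
  rw [PM_eq_starProjection hM, ← real_inner_self_eq_norm_sq]
  conv_lhs => rw [← PM_of_mem (PM_mem hM f)]
  rw [inner_PM hM]

theorem IsMatching.comm {M : List (α × α)} (hM : IsMatching M) : CommL M := by
  rw [IsMatching, List.nodup_flatMap] at hM
  refine hM.2.imp ?_
  intro e e' h
  have h1 : e.1 ≠ e'.1 ∧ e.1 ≠ e'.2 ∧ e.2 ≠ e'.1 ∧ e.2 ≠ e'.2 := by
    simp only [Function.onFun, List.disjoint_cons_left, List.mem_cons, List.not_mem_nil,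
      or_false, not_or] at h
    tauto
  obtain ⟨h1, h2, h3, h4⟩ := h1
  have hd : Perm.Disjoint (swap e.1 e.2) (swap e'.1 e'.2) := by
    intro x
    by_cases hx1 : x = e.1
    · right; subst hx1; exact Equiv.swap_apply_of_ne_of_ne h1 h2
    · by_cases hx2 : x = e.2
      · right; subst hx2; exact Equiv.swap_apply_of_ne_of_ne h3 h4
      · left; exact Equiv.swap_apply_of_ne_of_ne hx1 hx2
  exact hd.commute.eq

/-- the points of the pairs of a matching -/
def mtL (M : List (α × α)) : Bool × Fin M.length → α :=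
  fun p => if p.1 then (M.get p.2).2 else (M.get p.2).1

theorem mtL_injective {M : List (α × α)} (hM : IsMatching M) : Function.Injective (mtL M) := by
  rw [IsMatching, List.nodup_flatMap] at hM
  obtain ⟨h1, h2⟩ := hM
  have hne : ∀ i : Fin M.length, (M.get i).1 ≠ (M.get i).2 := by
    intro i
    have := h1 (M.get i) (List.get_mem M i)
    simpa using this
  have hdis : ∀ i j : Fin M.length, i ≠ j → (M.get i).1 ≠ (M.get j).1 ∧
      (M.get i).1 ≠ (M.get j).2 ∧ (M.get i).2 ≠ (M.get j).1 ∧ (M.get i).2 ≠ (M.get j).2 := by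
    have key : ∀ i j : Fin M.length, i < j → (M.get i).1 ≠ (M.get j).1 ∧
      (M.get i).1 ≠ (M.get j).2 ∧ (M.get i).2 ≠ (M.get j).1 ∧ (M.get i).2 ≠ (M.get j).2 := by
      intro i j hij
      have h := List.pairwise_iff_get.1 h2 i j hij
      simp only [Function.onFun, List.disjoint_cons_left, List.mem_cons, List.not_mem_nil,
        or_false, not_or] at h
      tauto
    intro i j hij
    rcases lt_or_gt_of_ne hij with h | h
    · exact key i j h
    · obtain ⟨a1, a2, a3, a4⟩ := key j i h
      exact ⟨a1.symm, a3.symm, a2.symm, a4.symm⟩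
  rintro ⟨b, i⟩ ⟨b', j⟩ h
  by_cases hij : i = j
  · subst hij
    have h' := hne i
    cases b <;> cases b'
    · rfl
    · exact absurd h h'
    · exact absurd h.symm h'
    · rfl
  · obtain ⟨a1, a2, a3, a4⟩ := hdis i j hij
    cases b <;> cases b' <;> simp_all [mtL]

end Vale.Agent.P162.S2.Abs
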